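import Mathlib

/-!
# P207, all dimensions, step 1.1 / Lemma Q: the orbit estimate

One zoom along an orbit of length `n` in affine charts.  `κ j` is the (linear) contraction from the
chart at time `n` to the chart at time `j`, `Q j` is the push forward of forms (modulo the
invariant bundle), `N u : V → ℝ` is the pairing with the tensor of the stable bundle, and the
identity `hid` is the telescoped transformation law of the tensor.
-/

open Set Filter Topology Metric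
open scoped ContDiff

noncomputable section

namespace Vale.Agent.P207.H7

section Gen

variable {E F G V : Type*} [NormedAddCommGroup E] [NormedSpace ℝ E] [NormedAddCommGroup F]
  [NormedSpace ℝ F] [NormedAddCommGroup V] [NormedSpace ℝ V] [NormedAddCommGroup G]
  [NormedSpace ℝ G]

/-- derivatives of a composition with a linear map, on open sets -/
lemma iter_comp_right {f : E → F} {U : Set E} {U' : Set G} (hU : IsOpen U) (g : G →L[ℝ] E)
    (hf : ContDiffOn ℝ ∞ f U) (hm : MapsTo g U' U) {x : G} (hx : x ∈ U') (i : ℕ) :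
    ‖iteratedFDeriv ℝ i (fun u => f (g u)) x‖ ≤ ‖iteratedFDeriv ℝ i f (g x)‖ * ‖g‖ ^ i := by
  have hT : IsOpen (g ⁻¹' U) := hU.preimage g.continuous
  have h1 := g.iteratedFDerivWithin_comp_right hf hU.uniqueDiffOn hT.uniqueDiffOn (hm hx)
    (i := i) (by exact_mod_cast le_top)
  rw [iteratedFDerivWithin_of_isOpen i hT (hm hx), iteratedFDerivWithin_of_isOpen i hU (hm hx)]
    at h1
  have h2 : (f ∘ g) = fun u => f (g u) := rfl
  rw [h2] at h1
  rw [h1]
  refine (ContinuousMultilinearMap.norm_compContinuousLinearMap_le _ _).trans ?_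
  simp

/-- derivatives of a composition with a linear map on the left, on open sets -/
lemma iter_comp_left {f : E → F} {U : Set E} (hU : IsOpen U) (g : F →L[ℝ] G)
    (hf : ContDiffOn ℝ ∞ f U) {x : E} (hx : x ∈ U) (i : ℕ) :
    ‖iteratedFDeriv ℝ i (fun u => g (f u)) x‖ ≤ ‖g‖ * ‖iteratedFDeriv ℝ i f x‖ := by
  have h1 := g.iteratedFDerivWithin_comp_left (i := i) (hf x hx) hU.uniqueDiffOn hx
    (by exact_mod_cast le_top)
  rw [iteratedFDerivWithin_of_isOpen i hU hx, iteratedFDerivWithin_of_isOpen i hU hx] at h1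
  have h2 : (g ∘ f) = fun u => g (f u) := rfl
  rw [h2] at h1
  rw [h1]
  exact g.norm_compContinuousMultilinearMap_le _

/-- Leibniz for the evaluation pairing -/
lemma iter_eval {f : E → V →L[ℝ] ℝ} {g : E → V} {U : Set E} (hU : IsOpen U)
    (hf : ContDiffOn ℝ ∞ f U) (hg : ContDiffOn ℝ ∞ g U) {x : E} (hx : x ∈ U) (k : ℕ) :
    ‖iteratedFDeriv ℝ k (fun y => f y (g y)) x‖ ≤ ∑ i ∈ Finset.range (k + 1),
      (k.choose i : ℝ) * ‖iteratedFDeriv ℝ i f x‖ * ‖iteratedFDeriv ℝ (k - i) g x‖ := by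
  have h1 := (ContinuousLinearMap.id ℝ (V →L[ℝ] ℝ)).norm_iteratedFDerivWithin_le_of_bilinear_of_le_one
    hf hg hU.uniqueDiffOn hx (n := k) (by exact_mod_cast le_top) ContinuousLinearMap.norm_id_le
  rw [iteratedFDerivWithin_of_isOpen k hU hx] at h1
  refine h1.trans (le_of_eq (Finset.sum_congr rfl fun i _ => ?_))
  rw [iteratedFDerivWithin_of_isOpen i hU hx, iteratedFDerivWithin_of_isOpen (k - i) hU hx]

end Gen

/-- the constant of the orbit estimate -/
def Kz (k : ℕ) (a b A Cz : ℝ) : ℝ :=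
  A ^ k + 2 ^ k * Cz * A ^ (k + 2) * Real.exp (3 * a)
    + Cz * A ^ (k + 1) * Real.exp (2 * b) * (1 - Real.exp (-(k * a - 2 * b)))⁻¹

section Num

lemma expo_aux {k i : ℕ} {p n : ℝ} (hk : 3 ≤ k) (hi : i ≤ k) (hp : 0 ≤ p) (hpn : p ≤ n - 1) :
    3 * (n - 1) ≤ i * p + 2 * (n - 1 - p) + ((k - i : ℕ) : ℝ) * n + (if i = k then n else 0) := by
  have hn : 0 ≤ n - 1 := hp.trans hpn
  have hn1 : (0 : ℝ) ≤ n := by linarith
  rcases Nat.lt_or_ge i k with h | h
  · rw [if_neg h.ne, add_zero]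
    have h1 : (1 : ℝ) ≤ ((k - i : ℕ) : ℝ) := by exact_mod_cast Nat.sub_pos_of_lt h
    rcases Nat.lt_or_ge i 2 with h2 | h2
    · have h3 : (2 : ℝ) ≤ ((k - i : ℕ) : ℝ) := by
        have : 2 ≤ k - i := by omega
        exact_mod_cast this
      interval_cases i
      · have h4 : (3 : ℝ) ≤ ((k - 0 : ℕ) : ℝ) := by
          have : 3 ≤ k - 0 := by omega
          exact_mod_cast this
        have := mul_le_mul_of_nonneg_right h4 hn1
        simp only [Nat.cast_zero, zero_mul] at *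
        nlinarith
      · have := mul_le_mul_of_nonneg_right h3 hn1
        simp only [Nat.cast_one, one_mul] at *
        nlinarith
    · have h3 : (2 : ℝ) ≤ i := by exact_mod_cast h2
      have := mul_le_mul_of_nonneg_right h3 hp
      have := mul_le_mul_of_nonneg_right h1 hn1
      nlinarith
  · have hik : i = k := le_antisymm hi h
    subst hik
    rw [if_pos rfl, Nat.sub_self, Nat.cast_zero, zero_mul, add_zero]
    have h3 : (3 : ℝ) ≤ i := by exact_mod_cast hk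
    have := mul_le_mul_of_nonneg_right h3 hp
    nlinarith

end Num

section Zoom

variable {E V : Type*} [NormedAddCommGroup E] [NormedSpace ℝ E] [NormedAddCommGroup V]
  [NormedSpace ℝ V]

/-- one term of the telescoped sum -/
lemma term_bound {k n j : ℕ} {a b A Cz Bσ R : ℝ} (ha : 0 < a) (hk : 3 ≤ k)
    (hA : 1 ≤ A) (hCz : 0 ≤ Cz) (hB : 0 ≤ Bσ) (_hR : 0 ≤ R) (hj : j < n)
    {κ' κ0 : E →L[ℝ] E} (hm' : MapsTo κ' (ball 0 1) (ball 0 1))
    (hm0 : MapsTo κ0 (ball 0 1) (ball 0 1))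
    (hκ' : ‖κ'‖ ≤ A * Real.exp (-a * (n - (j + 1)))) (hκ0 : ‖κ0‖ ≤ A * Real.exp (-a * n))
    {Q : V →L[ℝ] V} (hQ : ‖Q‖ ≤ A * Real.exp (-2 * a * j))
    {Z : E → V →L[ℝ] ℝ} (hZs : ContDiffOn ℝ ∞ Z (ball 0 1))
    (hZ : ∀ i ≤ k, ∀ u ∈ ball (0 : E) 1, ‖iteratedFDeriv ℝ i Z u‖ ≤ Cz)
    {σ : E → V} (hσs : ContDiffOn ℝ ∞ σ (ball 0 1))
    (hσ : ∀ i, 1 ≤ i → i ≤ k → ∀ u ∈ ball (0 : E) 1, ‖iteratedFDeriv ℝ i σ u‖ ≤ Bσ)
    (hQσ : ‖Q (σ 0)‖ ≤ A * Real.exp (2 * b * (n - j)) * R)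
    {u : E} (hu : u ∈ ball (0 : E) 1) :
    ‖iteratedFDeriv ℝ k (fun u => Z (κ' u) (Q (σ (κ0 u)))) u‖ ≤
      2 ^ k * Cz * A ^ (k + 2) * Real.exp (3 * a) * (Bσ * Real.exp (-3 * a * n))
      + Cz * A ^ (k + 1) * Real.exp (2 * b) * R
        * Real.exp (-(k * a - 2 * b)) ^ (n - 1 - j) := by
  have hA0 : 0 ≤ A := by linarith
  have hU : IsOpen (ball (0 : E) 1) := isOpen_ball
  have hfs : ContDiffOn ℝ ∞ (fun u => Z (κ' u)) (ball 0 1) :=
    hZs.comp κ'.contDiff.contDiffOn hm'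
  have hgs0 : ContDiffOn ℝ ∞ (fun u => σ (κ0 u)) (ball 0 1) :=
    hσs.comp κ0.contDiff.contDiffOn hm0
  have hgs : ContDiffOn ℝ ∞ (fun u => Q (σ (κ0 u))) (ball 0 1) :=
    Q.contDiff.comp_contDiffOn hgs0
  have h1 := iter_eval hU hfs hgs hu k
  refine h1.trans ?_
  set p : ℝ := n - (j + 1) with hp
  have hjn : (j : ℝ) + 1 ≤ n := by exact_mod_cast hj
  have hp0 : 0 ≤ p := by linarith
  have hpn : p ≤ (n : ℝ) - 1 := by
    have : (0 : ℝ) ≤ j := Nat.cast_nonneg j
    linarith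
  have hf : ∀ i ≤ k, ‖iteratedFDeriv ℝ i (fun u => Z (κ' u)) u‖
      ≤ Cz * (A * Real.exp (-a * p)) ^ i := fun i hi =>
    (iter_comp_right hU κ' hZs hm' hu i).trans
      (mul_le_mul (hZ i hi _ (hm' hu)) (pow_le_pow_left₀ (norm_nonneg _) hκ' i)
        (pow_nonneg (norm_nonneg _) _) hCz)
  have hg : ∀ i, 1 ≤ i → i ≤ k → ‖iteratedFDeriv ℝ i (fun u => Q (σ (κ0 u))) u‖
      ≤ (A * Real.exp (-2 * a * j)) * (Bσ * (A * Real.exp (-a * n)) ^ i) := fun i hi hik =>
    (iter_comp_left hU Q hgs0 hu i).trans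
      (mul_le_mul hQ ((iter_comp_right hU κ0 hσs hm0 hu i).trans
        (mul_le_mul (hσ i hi hik _ (hm0 hu)) (pow_le_pow_left₀ (norm_nonneg _) hκ0 i)
          (pow_nonneg (norm_nonneg _) _) hB)) (norm_nonneg _) (by positivity))
  -- the value
  have hdiff : ‖σ (κ0 u) - σ 0‖ ≤ Bσ * (A * Real.exp (-a * n)) := by
    have h0 : (0 : E) ∈ ball (0 : E) 1 := mem_ball_self one_pos
    have h2 : ∀ x ∈ ball (0 : E) 1, DifferentiableAt ℝ σ x := fun x hx =>
      ((hσs x hx).contDiffAt (hU.mem_nhds hx)).differentiableAt (by simp)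
    have h3 : ∀ x ∈ ball (0 : E) 1, ‖fderiv ℝ σ x‖ ≤ Bσ := fun x hx => by
      have := hσ 1 le_rfl (by omega) x hx
      rwa [norm_iteratedFDeriv_one] at this
    have h4 := (convex_ball (0 : E) 1).norm_image_sub_le_of_norm_fderiv_le h2 h3 h0 (hm0 hu)
    refine h4.trans (mul_le_mul_of_nonneg_left ?_ hB)
    rw [sub_zero]
    refine (κ0.le_opNorm u).trans ?_
    have : ‖u‖ ≤ 1 := by
      have := mem_ball_zero_iff.1 hu
      exact this.le
    calc ‖κ0‖ * ‖u‖ ≤ (A * Real.exp (-a * n)) * 1 :=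
          mul_le_mul hκ0 this (norm_nonneg _) (by positivity)
      _ = _ := mul_one _
  have hg0 : ‖Q (σ (κ0 u))‖ ≤ A * Real.exp (2 * b * (n - j)) * R
      + (A * Real.exp (-2 * a * j)) * (Bσ * (A * Real.exp (-a * n))) := by
    have : Q (σ (κ0 u)) = Q (σ 0) + Q (σ (κ0 u) - σ 0) := by rw [← map_add]; congr 1; abel
    rw [this]
    refine (norm_add_le _ _).trans (add_le_add hQσ ?_)
    exact (Q.le_opNorm _).trans (mul_le_mul hQ hdiff (norm_nonneg _) (by positivity))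
  -- each term of the Leibniz sum
  have hterm : ∀ i ∈ Finset.range (k + 1),
      (k.choose i : ℝ) * ‖iteratedFDeriv ℝ i (fun u => Z (κ' u)) u‖
        * ‖iteratedFDeriv ℝ (k - i) (fun u => Q (σ (κ0 u))) u‖
      ≤ (k.choose i : ℝ) * (Cz * A ^ (k + 2) * Real.exp (3 * a) * (Bσ * Real.exp (-3 * a * n)))
        + (if i = k then Cz * A ^ (k + 1) * Real.exp (2 * b) * R
          * Real.exp (-(k * a - 2 * b)) ^ (n - 1 - j) else 0) := by
    intro i hi
    have hik : i ≤ k := by have := Finset.mem_range.1 hi; omega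
    have hex := expo_aux (k := k) (i := i) (p := p) (n := (n : ℝ)) hk hik hp0 hpn
    have hexp : Real.exp (-a * (i * p + 2 * (n - 1 - p) + ((k - i : ℕ) : ℝ) * n
        + (if i = k then (n : ℝ) else 0))) ≤ Real.exp (3 * a) * Real.exp (-3 * a * n) := by
      rw [← Real.exp_add]
      apply Real.exp_le_exp.2
      nlinarith
    have hjp : (j : ℝ) = n - 1 - p := by rw [hp]; ring
    rcases Nat.lt_or_ge i k with h | h
    · rw [if_neg h.ne, add_zero]
      rw [if_neg h.ne, add_zero] at hexp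
      have e1 := hf i hik
      have e2 := hg (k - i) (by omega) (by omega)
      rw [mul_assoc]
      refine mul_le_mul_of_nonneg_left ?_ (Nat.cast_nonneg _)
      refine (mul_le_mul e1 e2 (norm_nonneg _) (by positivity)).trans ?_
      have e3 : Cz * (A * Real.exp (-a * p)) ^ i * (A * Real.exp (-2 * a * j)
          * (Bσ * (A * Real.exp (-a * n)) ^ (k - i)))
          = Cz * A ^ (k + 1) * Bσ * Real.exp (-a * (i * p + 2 * (n - 1 - p)
            + ((k - i : ℕ) : ℝ) * n)) := by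
        have e4 : A ^ (k + 1) = A ^ i * A * A ^ (k - i) := by
          rw [← pow_succ, ← pow_add]; congr 1; omega
        rw [mul_pow, mul_pow, ← Real.exp_nat_mul, ← Real.exp_nat_mul, e4, hjp]
        have e5 : Real.exp (-a * (i * p + 2 * (n - 1 - p) + ((k - i : ℕ) : ℝ) * n))
            = Real.exp (i * (-a * p)) * Real.exp (-2 * a * (n - 1 - p))
              * Real.exp (((k - i : ℕ) : ℝ) * (-a * n)) := by
          rw [← Real.exp_add, ← Real.exp_add]; congr 1; ring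
        rw [e5]; ring
      rw [e3]
      calc Cz * A ^ (k + 1) * Bσ * Real.exp (-a * (i * p + 2 * (n - 1 - p)
            + ((k - i : ℕ) : ℝ) * n))
          ≤ Cz * A ^ (k + 2) * Bσ * (Real.exp (3 * a) * Real.exp (-3 * a * n)) := by
            refine mul_le_mul ?_ hexp (Real.exp_pos _).le (by positivity)
            exact mul_le_mul_of_nonneg_right (mul_le_mul_of_nonneg_left
              (pow_le_pow_right₀ hA (by omega)) hCz) hB
        _ = _ := by ring
    · have hik' : i = k := le_antisymm hik h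
      subst hik'
      rw [if_pos rfl] at hexp ⊢
      have e1 := hf i le_rfl
      rw [Nat.sub_self, norm_iteratedFDeriv_zero, Nat.choose_self, Nat.cast_one, one_mul, one_mul]
      refine (mul_le_mul e1 hg0 (norm_nonneg _) (by positivity)).trans ?_
      rw [mul_add, add_comm]
      refine add_le_add ?_ ?_
      · have e3 : Cz * (A * Real.exp (-a * p)) ^ i * (A * Real.exp (-2 * a * j)
            * (Bσ * (A * Real.exp (-a * n))))
            = Cz * A ^ (i + 2) * Bσ * Real.exp (-a * (i * p + 2 * (n - 1 - p) + ((i - i : ℕ) : ℝ) * n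
              + n)) := by
          rw [mul_pow, ← Real.exp_nat_mul, hjp, Nat.sub_self, Nat.cast_zero, zero_mul, add_zero]
          have e5 : Real.exp (-a * (i * p + 2 * (n - 1 - p) + n))
              = Real.exp (i * (-a * p)) * Real.exp (-2 * a * (n - 1 - p))
                * Real.exp (-a * n) := by
            rw [← Real.exp_add, ← Real.exp_add]; congr 1; ring
          rw [e5]; ring
        rw [e3]
        calc _ ≤ Cz * A ^ (i + 2) * Bσ * (Real.exp (3 * a) * Real.exp (-3 * a * n)) :=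
              mul_le_mul_of_nonneg_left hexp (by positivity)
          _ = _ := by ring
      · have hpn' : ((n - 1 - j : ℕ) : ℝ) = p := by
          rw [hp, Nat.sub_sub, Nat.cast_sub (by omega)]; push_cast; ring
        have e5 : Real.exp (-(i * a - 2 * b)) ^ (n - 1 - j)
            = Real.exp (i * (-a * p)) * Real.exp (2 * b * p) := by
          rw [← Real.exp_nat_mul, hpn', ← Real.exp_add]; congr 1; ring
        have e6 : Real.exp (2 * b * (n - j)) = Real.exp (2 * b) * Real.exp (2 * b * p) := by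
          rw [← Real.exp_add, hp]; congr 1; ring
        rw [mul_pow, ← Real.exp_nat_mul, e5, e6]
        apply le_of_eq; ring
  refine (Finset.sum_le_sum hterm).trans ?_
  rw [Finset.sum_add_distrib, Finset.sum_ite_eq' (Finset.range (k + 1)) k, if_pos (by simp),
    ← Finset.sum_mul]
  have h2 : (∑ i ∈ Finset.range (k + 1), (k.choose i : ℝ)) = 2 ^ k := by
    exact_mod_cast Nat.sum_range_choose k
  rw [h2]
  refine add_le_add (le_of_eq ?_) le_rfl
  ring

/-- **Orbit estimate.** -/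
theorem zoom {k n : ℕ} {a b A Cz Bσ M : ℝ} (ha : 0 < a) (hk : 3 ≤ k) (hkab : 2 * b < k * a)
    (hA : 1 ≤ A) (hCz : 0 ≤ Cz) (hB : 0 ≤ Bσ) (hM : 0 ≤ M)
    (κ : ℕ → E →L[ℝ] E) (hκm : ∀ j ≤ n, MapsTo (κ j) (ball 0 1) (ball 0 1))
    (hκ : ∀ j ≤ n, ‖κ j‖ ≤ A * Real.exp (-a * (n - j)))
    (Q : ℕ → V →L[ℝ] V) (hQ : ∀ j ≤ n, ‖Q j‖ ≤ A * Real.exp (-2 * a * j))
    (N0 Nn : E → V →L[ℝ] ℝ) (Z : ℕ → E → V →L[ℝ] ℝ)
    (hZs : ∀ j < n, ContDiffOn ℝ ∞ (Z j) (ball 0 1))
    (hZ : ∀ j < n, ∀ i ≤ k, ∀ u ∈ ball (0 : E) 1, ‖iteratedFDeriv ℝ i (Z j) u‖ ≤ Cz)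
    (V0 : Set V)
    (hid : ∀ r ∈ V0, ∀ u ∈ ball (0 : E) 1,
      Nn u (Q n r) = N0 (κ 0 u) r + ∑ j ∈ Finset.range n, Z j (κ (j + 1) u) (Q j r))
    (σ : E → V) (hσs : ContDiffOn ℝ ∞ σ (ball 0 1)) (hσV : ∀ u ∈ ball (0 : E) 1, σ u ∈ V0)
    (hσ : ∀ i, 1 ≤ i → i ≤ k → ∀ u ∈ ball (0 : E) 1, ‖iteratedFDeriv ℝ i σ u‖ ≤ Bσ)
    (F e : E → ℝ) (hF : ContDiffOn ℝ ∞ F (ball 0 1))
    (hFk : ∀ u ∈ ball (0 : E) 1, ‖iteratedFDeriv ℝ k F u‖ ≤ M)
    (he : ∀ u ∈ ball (0 : E) 1, N0 u (σ u) = F u + e u)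
    (hQn : ∀ j ≤ n, ‖Q j (σ 0)‖ ≤ A * Real.exp (2 * b * (n - j)) * ‖Q n (σ 0)‖) :
    ∃ G : E → ℝ, ContDiffOn ℝ ∞ G (ball 0 1) ∧
      (∀ u ∈ ball (0 : E) 1, ‖iteratedFDeriv ℝ k G u‖ ≤ Kz k a b A Cz *
        (‖Q n (σ 0)‖ + M * Real.exp (-(k * a * n)) + n * (Bσ * Real.exp (-3 * a * n)))) ∧
      (∀ u ∈ ball (0 : E) 1, |Nn u (Q n (σ 0)) - G u| ≤ |e (κ 0 u)|
        + ‖Nn u‖ * (A ^ 2 * Bσ * Real.exp (-3 * a * n))) := by
  have hA0 : 0 ≤ A := by linarith
  have hU : IsOpen (ball (0 : E) 1) := isOpen_ball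
  have hm0 := hκm 0 (Nat.zero_le _)
  have hκ0 : ‖κ 0‖ ≤ A * Real.exp (-a * n) := by simpa using hκ 0 (Nat.zero_le _)
  set q : ℝ := Real.exp (-(k * a - 2 * b)) with hq
  have hq0 : 0 < q := Real.exp_pos _
  have hq1 : q < 1 := by rw [hq, Real.exp_lt_one_iff]; linarith
  set R : ℝ := ‖Q n (σ 0)‖ with hR
  have hR0 : 0 ≤ R := norm_nonneg _
  let T : ℕ → E → ℝ := fun j u => Z j (κ (j + 1) u) (Q j (σ (κ 0 u)))
  have hTs : ∀ j < n, ContDiffOn ℝ ∞ (T j) (ball 0 1) := fun j hj =>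
    ((hZs j hj).comp (κ (j + 1)).contDiff.contDiffOn (hκm (j + 1) hj)).clm_apply
      ((Q j).contDiff.comp_contDiffOn (hσs.comp (κ 0).contDiff.contDiffOn hm0))
  have hFs : ContDiffOn ℝ ∞ (fun u => F (κ 0 u)) (ball 0 1) :=
    hF.comp (κ 0).contDiff.contDiffOn hm0
  have hTk : ∀ j < n, ∀ u ∈ ball (0 : E) 1, ‖iteratedFDeriv ℝ k (T j) u‖ ≤
      2 ^ k * Cz * A ^ (k + 2) * Real.exp (3 * a) * (Bσ * Real.exp (-3 * a * n))
      + Cz * A ^ (k + 1) * Real.exp (2 * b) * R * q ^ (n - 1 - j) := fun j hj u hu =>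
    term_bound ha hk hA hCz hB hR0 hj (hκm (j + 1) hj) hm0
      (by have := hκ (j + 1) hj; push_cast at this; exact this) hκ0 (hQ j hj.le) (hZs j hj)
      (hZ j hj) hσs hσ (hQn j hj.le) hu
  refine ⟨fun u => F (κ 0 u) + ∑ j ∈ Finset.range n, T j u,
    hFs.add (ContDiffOn.sum fun j hj => hTs j (Finset.mem_range.1 hj)), ?_, ?_⟩
  · intro u hu
    have hsumd : ContDiffOn ℝ ∞ (fun u => ∑ j ∈ Finset.range n, T j u) (ball 0 1) :=
      ContDiffOn.sum fun j hj => hTs j (Finset.mem_range.1 hj)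
    have e1 : iteratedFDeriv ℝ k (fun u => F (κ 0 u) + ∑ j ∈ Finset.range n, T j u) u
        = iteratedFDeriv ℝ k (fun u => F (κ 0 u)) u
          + ∑ j ∈ Finset.range n, iteratedFDeriv ℝ k (T j) u := by
      have a1 : ContDiffAt ℝ k (fun u => F (κ 0 u)) u :=
        ((hFs u hu).contDiffAt (hU.mem_nhds hu)).of_le (by exact_mod_cast le_top)
      have a2 : ∀ j ∈ Finset.range n, ContDiffAt ℝ k (T j) u := fun j hj =>
        ((hTs j (Finset.mem_range.1 hj) u hu).contDiffAt (hU.mem_nhds hu)).of_le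
          (by exact_mod_cast le_top)
      have a3 : ContDiffAt ℝ k (fun u => ∑ j ∈ Finset.range n, T j u) u := ContDiffAt.sum a2
      have a4 := iteratedFDeriv_add_apply a1 a3
      have a5 := iteratedFDeriv_fun_sum_apply (𝕜 := ℝ) (x := u) a2
      rw [← a5]
      exact a4
    rw [e1]
    refine (norm_add_le _ _).trans ?_
    have b1 : ‖iteratedFDeriv ℝ k (fun u => F (κ 0 u)) u‖ ≤ M * (A * Real.exp (-a * n)) ^ k :=
      (iter_comp_right hU (κ 0) hF hm0 hu k).trans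
        (mul_le_mul (hFk _ (hm0 hu)) (pow_le_pow_left₀ (norm_nonneg _) hκ0 k)
          (pow_nonneg (norm_nonneg _) _) hM)
    have b2 : ‖∑ j ∈ Finset.range n, iteratedFDeriv ℝ k (T j) u‖ ≤
        n * (2 ^ k * Cz * A ^ (k + 2) * Real.exp (3 * a) * (Bσ * Real.exp (-3 * a * n)))
        + Cz * A ^ (k + 1) * Real.exp (2 * b) * R * (1 - q)⁻¹ := by
      refine (norm_sum_le _ _).trans ((Finset.sum_le_sum fun j hj =>
        hTk j (Finset.mem_range.1 hj) u hu).trans ?_)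
      rw [Finset.sum_add_distrib, Finset.sum_const, Finset.card_range, nsmul_eq_mul,
        ← Finset.mul_sum]
      refine add_le_add le_rfl (mul_le_mul_of_nonneg_left ?_ (by positivity))
      rw [Finset.sum_range_reflect (fun j => q ^ j) n]
      have := (summable_geometric_of_lt_one hq0.le hq1).sum_le_tsum (Finset.range n)
        (fun i _ => pow_nonneg hq0.le i)
      rwa [tsum_geometric_of_lt_one hq0.le hq1] at this
    have b3 : M * (A * Real.exp (-a * n)) ^ k = A ^ k * (M * Real.exp (-(k * a * n))) := by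
      rw [mul_pow, ← Real.exp_nat_mul]
      have : (k : ℝ) * (-a * n) = -(k * a * n) := by ring
      rw [this]; ring
    have hX : 0 ≤ M * Real.exp (-(k * a * n)) := by positivity
    have hY : 0 ≤ (n : ℝ) * (Bσ * Real.exp (-3 * a * n)) := by positivity
    have hi : 0 ≤ (1 - q)⁻¹ := inv_nonneg.2 (by linarith)
    have c1 : 0 ≤ A ^ k := by positivity
    have c2 : 0 ≤ 2 ^ k * Cz * A ^ (k + 2) * Real.exp (3 * a) := by positivity
    have c3 : 0 ≤ Cz * A ^ (k + 1) * Real.exp (2 * b) * (1 - q)⁻¹ := by positivity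
    rw [b3] at b1
    have : Kz k a b A Cz = A ^ k + 2 ^ k * Cz * A ^ (k + 2) * Real.exp (3 * a)
      + Cz * A ^ (k + 1) * Real.exp (2 * b) * (1 - q)⁻¹ := rfl
    rw [this]
    nlinarith [b1, b2, mul_nonneg c1 hR0, mul_nonneg c1 hY, mul_nonneg c2 hX, mul_nonneg c2 hR0,
      mul_nonneg c3 hX, mul_nonneg c3 hY]
  · intro u hu
    have h0 : (0 : E) ∈ ball (0 : E) 1 := mem_ball_self one_pos
    have h2 : ∀ x ∈ ball (0 : E) 1, DifferentiableAt ℝ σ x := fun x hx =>
      ((hσs x hx).contDiffAt (hU.mem_nhds hx)).differentiableAt (by simp)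
    have h3 : ∀ x ∈ ball (0 : E) 1, ‖fderiv ℝ σ x‖ ≤ Bσ := fun x hx => by
      have := hσ 1 le_rfl (by omega) x hx
      rwa [norm_iteratedFDeriv_one] at this
    have hdiff : ‖σ (κ 0 u) - σ 0‖ ≤ Bσ * (A * Real.exp (-a * n)) := by
      have h4 := (convex_ball (0 : E) 1).norm_image_sub_le_of_norm_fderiv_le h2 h3 h0 (hm0 hu)
      refine h4.trans (mul_le_mul_of_nonneg_left ?_ hB)
      rw [sub_zero]
      refine ((κ 0).le_opNorm u).trans ?_
      have : ‖u‖ ≤ 1 := (mem_ball_zero_iff.1 hu).le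
      calc ‖κ 0‖ * ‖u‖ ≤ (A * Real.exp (-a * n)) * 1 :=
            mul_le_mul hκ0 this (norm_nonneg _) (by positivity)
        _ = _ := mul_one _
    have e1 := hid (σ (κ 0 u)) (hσV _ (hm0 hu)) u hu
    have e2 := he (κ 0 u) (hm0 hu)
    have e3 : Nn u (Q n (σ 0)) - (F (κ 0 u) + ∑ j ∈ Finset.range n, T j u)
        = e (κ 0 u) - Nn u (Q n (σ (κ 0 u) - σ 0)) := by
      rw [map_sub, map_sub, e1, e2]; ring
    rw [e3]
    refine (abs_sub _ _).trans (add_le_add le_rfl ?_)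
    rw [← Real.norm_eq_abs]
    refine ((Nn u).le_opNorm _).trans (mul_le_mul_of_nonneg_left ?_ (norm_nonneg _))
    refine ((Q n).le_opNorm _).trans ?_
    refine (mul_le_mul (hQ n le_rfl) hdiff (norm_nonneg _) (by positivity)).trans (le_of_eq ?_)
    have : Real.exp (-3 * a * n) = Real.exp (-2 * a * n) * Real.exp (-a * n) := by
      rw [← Real.exp_add]; congr 1; ring
    rw [this]; ring

/-- the telescoped transformation law from the one step law -/
theorem tele {n : ℕ} (K κ : ℕ → E →L[ℝ] E) (hκn : ∀ u, κ n u = u)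
    (hκ : ∀ j < n, ∀ u, κ j u = K j (κ (j + 1) u))
    (hκm : ∀ j ≤ n, MapsTo (κ j) (ball 0 1) (ball 0 1))
    (N : ℕ → E → V →L[ℝ] ℝ) (Q : ℕ → V →L[ℝ] V) (Z : ℕ → E → V →L[ℝ] ℝ) (V0 : Set V)
    (hstep : ∀ j < n, ∀ u ∈ ball (0 : E) 1, ∀ r ∈ V0,
      N (j + 1) u (Q (j + 1) r) = N j (K j u) (Q j r) + Z j u (Q j r))
    {r : V} (hr : r ∈ V0) {u : E} (hu : u ∈ ball (0 : E) 1) :
    N n u (Q n r) = N 0 (κ 0 u) (Q 0 r)
      + ∑ j ∈ Finset.range n, Z j (κ (j + 1) u) (Q j r) := by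
  have key : ∀ i ≤ n, N n u (Q n r) = N (n - i) (κ (n - i) u) (Q (n - i) r)
      + ∑ j ∈ Finset.Ico (n - i) n, Z j (κ (j + 1) u) (Q j r) := by
    intro i
    induction i with
    | zero => intro _; simp [hκn]
    | succ i ih =>
      intro hi
      rw [ih (by omega)]
      have e1 : n - i = (n - (i + 1)) + 1 := by omega
      have hj : n - (i + 1) < n := by omega
      rw [e1, hstep _ hj _ (hκm (n - (i + 1) + 1) (by omega) hu) r hr, ← hκ _ hj,
        Finset.sum_eq_sum_Ico_succ_bot hj]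
      ring
  have := key n le_rfl
  rw [Nat.sub_self] at this
  rwa [← Nat.Ico_zero_eq_range]

end Zoom

end Vale.Agent.P207.H7
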